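import Vale.Agent.P063.Width

namespace Vale.Agent.P063

open Finset

variable {n r : ℕ}

/-- the set of all edges contained in the vertex set `S` -/
def edgesIn (n r : ℕ) (S : Finset (Fin n)) : Hyp n r :=
  Finset.univ.filter (fun e : Edge n r => e.1 ⊆ S)

lemma mem_edgesIn (S : Finset (Fin n)) (e : Edge n r) : e ∈ edgesIn n r S ↔ e.1 ⊆ S := by
  simp [edgesIn]

lemma card_edgesIn (S : Finset (Fin n)) : (edgesIn n r S).card = S.card.choose r := by
  rw [← Finset.card_powersetCard]
  apply Finset.card_bij (fun e _ => e.1)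
  · intro e he
    rw [Finset.mem_powersetCard]
    exact ⟨(mem_edgesIn S e).mp he, e.2⟩
  · intro a _ b _ hab
    exact Subtype.ext hab
  · intro b hb
    rw [Finset.mem_powersetCard] at hb
    exact ⟨⟨b, hb.2⟩, (mem_edgesIn S _).mpr hb.1, rfl⟩

/-- the property of containing a complete sub-hypergraph on `k` vertices -/
def cliqueProp (n r k : ℕ) : Finset (Hyp n r) :=
  Finset.univ.filter (fun G : Hyp n r => ∃ S : Finset (Fin n), S.card = k ∧ edgesIn n r S ⊆ G)

lemma mem_cliqueProp (k : ℕ) (G : Hyp n r) :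
    G ∈ cliqueProp n r k ↔ ∃ S : Finset (Fin n), S.card = k ∧ edgesIn n r S ⊆ G := by
  simp [cliqueProp]

lemma cliqueProp_isProperty (k : ℕ) (hrk : r ≤ k) (hkn : k ≤ n) :
    IsNontrivIncrProperty (cliqueProp n r k) where
  invariant := by
    intro σ G hG
    rw [mem_cliqueProp] at hG ⊢
    obtain ⟨S, hS, hSG⟩ := hG
    refine ⟨S.map σ.toEmbedding, by rw [Finset.card_map]; exact hS, ?_⟩
    intro e he
    rw [mem_edgesIn] at he
    unfold permHyp
    rw [Finset.mem_image]
    refine ⟨permEdge σ⁻¹ e, hSG ?_, ?_⟩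
    · rw [mem_edgesIn]
      intro x hx
      simp only [permEdge, Finset.mem_map, Equiv.coe_toEmbedding] at hx
      obtain ⟨y, hy, rfl⟩ := hx
      have := he hy
      simp only [Finset.mem_map, Equiv.coe_toEmbedding] at this
      obtain ⟨z, hz, rfl⟩ := this
      simpa using hz
    · apply Subtype.ext
      simp only [permEdge]
      ext x
      simp only [Finset.mem_map, Equiv.coe_toEmbedding]
      constructor
      · rintro ⟨y, ⟨z, hz, rfl⟩, rfl⟩
        simpa using hz
      · intro hx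
        exact ⟨σ⁻¹ x, ⟨x, hx, rfl⟩, by simp⟩
  increasing := by
    intro G H hG hGH
    rw [mem_cliqueProp] at hG ⊢
    obtain ⟨S, hS, hSG⟩ := hG
    exact ⟨S, hS, hSG.trans hGH⟩
  nonempty := by
    have hk : k ≤ (Finset.univ : Finset (Fin n)).card := by simpa using hkn
    obtain ⟨S, _, hS⟩ := Finset.exists_subset_card_eq hk
    exact ⟨Finset.univ, (mem_cliqueProp k _).mpr ⟨S, hS, Finset.subset_univ _⟩⟩
  not_all := by
    refine ⟨∅, ?_⟩
    rw [mem_cliqueProp]
    rintro ⟨S, hS, hSG⟩
    have hr : r ≤ S.card := by omega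
    obtain ⟨e, heS, he⟩ := Finset.exists_subset_card_eq hr
    have : (⟨e, he⟩ : Edge n r) ∈ edgesIn n r S := (mem_edgesIn S _).mpr heS
    exact absurd (hSG this) (Finset.notMem_empty _)

lemma cliqueProp_witness (k : ℕ) :
    ∀ G ∈ cliqueProp n r k, ∃ W ∈ cliqueProp n r k, W ⊆ G ∧ W.card ≤ k.choose r := by
  intro G hG
  rw [mem_cliqueProp] at hG
  obtain ⟨S, hS, hSG⟩ := hG
  refine ⟨edgesIn n r S, (mem_cliqueProp k _).mpr ⟨S, hS, subset_rfl⟩, hSG, ?_⟩
  rw [card_edgesIn, hS]

/-- the union bound -/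
lemma mu_cliqueProp_le (k : ℕ) (p : ℝ) (h0 : 0 ≤ p) (h1 : p ≤ 1) :
    mu p (cliqueProp n r k) ≤ (n.choose k : ℝ) * p ^ (k.choose r) := by
  classical
  set T : Finset (Finset (Fin n)) := Finset.powersetCard k Finset.univ with hT
  set w : Hyp n r → ℝ := fun G => p ^ G.card * (1 - p) ^ (Fintype.card (Edge n r) - G.card) with hw
  have hwnn : ∀ G, 0 ≤ w G := by
    intro G
    have : 0 ≤ 1 - p := by linarith
    simp only [hw]; positivity
  have hstep : ∀ G ∈ cliqueProp n r k, w G ≤ ∑ S ∈ T, if edgesIn n r S ⊆ G then w G else 0 := by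
    intro G hG
    rw [mem_cliqueProp] at hG
    obtain ⟨S, hS, hSG⟩ := hG
    have hST : S ∈ T := by
      rw [hT, Finset.mem_powersetCard]; exact ⟨Finset.subset_univ _, hS⟩
    have := Finset.single_le_sum (f := fun S => if edgesIn n r S ⊆ G then w G else 0)
      (fun S _ => by split_ifs <;> simp [hwnn G]) hST
    simpa [hSG] using this
  calc mu p (cliqueProp n r k) = ∑ G ∈ cliqueProp n r k, w G := rfl
    _ ≤ ∑ G ∈ cliqueProp n r k, ∑ S ∈ T, if edgesIn n r S ⊆ G then w G else 0 :=
        Finset.sum_le_sum hstep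
    _ ≤ ∑ G ∈ (Finset.univ : Finset (Hyp n r)), ∑ S ∈ T, if edgesIn n r S ⊆ G then w G else 0 := by
        apply Finset.sum_le_sum_of_subset_of_nonneg (Finset.subset_univ _)
        intro G _ _
        apply Finset.sum_nonneg
        intro S _
        split_ifs <;> simp [hwnn G]
    _ = ∑ S ∈ T, ∑ G ∈ (Finset.univ : Finset (Hyp n r)), if edgesIn n r S ⊆ G then w G else 0 :=
        Finset.sum_comm
    _ = ∑ S ∈ T, p ^ (k.choose r) := by
        apply Finset.sum_congr rfl
        intro S hS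
        rw [hT, Finset.mem_powersetCard] at hS
        rw [← Finset.sum_filter]
        have : (Finset.univ.filter (fun G : Hyp n r => edgesIn n r S ⊆ G))
            = Finset.Icc (edgesIn n r S) Finset.univ := by
          ext G; simp
        rw [this]
        have h2 := mu_Icc (edgesIn n r S) p
        unfold mu at h2
        rw [h2, card_edgesIn, hS.2]
    _ = (n.choose k : ℝ) * p ^ (k.choose r) := by
        rw [Finset.sum_const, hT, Finset.card_powersetCard, Finset.card_univ, Fintype.card_fin]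
        simp

/-- width bound for the clique property -/
theorem width_cliqueProp (k : ℕ) (hr : 1 ≤ r) (hrk : r ≤ k) (hkn : k ≤ n)
    (ε p0 : ℝ) (hε0 : 0 < ε) (hε1 : ε < 1 / 2) (hp0 : 0 < p0) (hp01 : p0 ≤ 1)
    (hsmall : (n.choose k : ℝ) * p0 ^ (k.choose r) ≤ ε) :
    p0 * (1 - 2 * ε) / (k.choose r : ℕ) ≤ width ε (cliqueProp n r k) := by
  have hprop := cliqueProp_isProperty (n := n) (r := r) k hrk hkn
  have hchoose : 0 < k.choose r := Nat.choose_pos hrk
  apply width_lower (cliqueProp n r k) hprop.increasing hprop.nonempty (k.choose r) hchoose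
    (cliqueProp_witness k) ε p0 hε0 hε1 hp0
  intro p hp0' hplt hp1
  have h1 := mu_cliqueProp_le (n := n) (r := r) k p hp0' hp1
  have hnk : (0 : ℝ) < (n.choose k : ℝ) := by exact_mod_cast Nat.choose_pos hkn
  have h2 : p ^ (k.choose r) < p0 ^ (k.choose r) :=
    pow_lt_pow_left₀ hplt hp0' hchoose.ne'
  have h3 : (n.choose k : ℝ) * p ^ (k.choose r) < (n.choose k : ℝ) * p0 ^ (k.choose r) :=
    mul_lt_mul_of_pos_left h2 hnk
  linarith

end Vale.Agent.P063
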