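import Mathlib

/-!
# P063 : definitions (threshold width of hypergraph properties)
-/

namespace Vale.Agent.P063

/-- `Edge n r` is the set of `r`-element subsets of the vertex set `Fin n`. -/
abbrev Edge (n r : ℕ) : Type := {e : Finset (Fin n) // e.card = r}

/-- An `r`-uniform hypergraph on the vertex set `Fin n` is a set of edges. -/
abbrev Hyp (n r : ℕ) : Type := Finset (Edge n r)

/-- The image of an edge under a permutation of the vertices. -/
def permEdge {n r : ℕ} (σ : Equiv.Perm (Fin n)) (e : Edge n r) : Edge n r :=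
  ⟨e.1.map σ.toEmbedding, by rw [Finset.card_map]; exact e.2⟩

/-- The image of a hypergraph under a permutation of the vertices. -/
def permHyp {n r : ℕ} (σ : Equiv.Perm (Fin n)) (G : Hyp n r) : Hyp n r :=
  G.image (permEdge σ)

/-- A nontrivial increasing `r`-uniform hypergraph property on `n` vertices:
a family of hypergraphs invariant under all vertex permutations, closed under adding edges,
neither empty nor everything. -/
structure IsNontrivIncrProperty {n r : ℕ} (P : Finset (Hyp n r)) : Prop where
  invariant : ∀ (σ : Equiv.Perm (Fin n)) (G : Hyp n r), G ∈ P → permHyp σ G ∈ P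
  increasing : ∀ G H : Hyp n r, G ∈ P → G ⊆ H → H ∈ P
  nonempty : ∃ G : Hyp n r, G ∈ P
  not_all : ∃ G : Hyp n r, G ∉ P

/-- `mu p P` : the probability that the random subset of `E`, containing each element
independently with probability `p`, lies in the family `P`. -/
noncomputable def mu {E : Type*} [Fintype E] (p : ℝ) (P : Finset (Finset E)) : ℝ :=
  ∑ G ∈ P, p ^ G.card * (1 - p) ^ (Fintype.card E - G.card)

/-- `pThr a P = inf {p ∈ [0,1] : mu p P ≥ a}`. -/
noncomputable def pThr {E : Type*} [Fintype E] (a : ℝ) (P : Finset (Finset E)) : ℝ :=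
  sInf {p : ℝ | 0 ≤ p ∧ p ≤ 1 ∧ a ≤ mu p P}

/-- The threshold width `w_ε(P) = p_{1-ε}(P) - p_ε(P)`. -/
noncomputable def width {E : Type*} [Fintype E] (ε : ℝ) (P : Finset (Finset E)) : ℝ :=
  pThr (1 - ε) P - pThr ε P

end Vale.Agent.P063
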