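import Vale.Agent.P063.Defs

namespace Vale.Agent.P063

open Finset

variable {E : Type*} [Fintype E] [DecidableEq E]

/-- sum over the interval `[W, X]` of the Boolean lattice -/
lemma sum_Icc_eq (W X : Finset E) (h : W ⊆ X) (f : Finset E → ℝ) :
    ∑ y ∈ Finset.Icc W X, f y = ∑ z ∈ (X \ W).powerset, f (W ∪ z) := by
  rw [Finset.Icc_eq_image_powerset h, Finset.sum_image]
  intro a ha b hb hab
  simp only [Finset.coe_powerset, Set.mem_preimage, Set.mem_powerset_iff, Finset.coe_subset] at ha hb
  have ha' : Disjoint W a := by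
    rw [Finset.disjoint_left]; intro x hx hxa
    exact (Finset.mem_sdiff.mp (ha hxa)).2 hx
  have hb' : Disjoint W b := by
    rw [Finset.disjoint_left]; intro x hx hxa
    exact (Finset.mem_sdiff.mp (hb hxa)).2 hx
  have h1 : (W ∪ a) \ W = a := by
    rw [Finset.union_sdiff_cancel_left ha']
  have h2 : (W ∪ b) \ W = b := by
    rw [Finset.union_sdiff_cancel_left hb']
  have hab' : W ∪ a = W ∪ b := hab
  rw [← h1, ← h2, hab']

lemma sum_Icc_pow (W X : Finset E) (h : W ⊆ X) (a b : ℝ) :
    ∑ y ∈ Finset.Icc W X, a ^ y.card * b ^ (X.card - y.card)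
      = a ^ W.card * (a + b) ^ (X.card - W.card) := by
  rw [sum_Icc_eq W X h]
  have hc : (X \ W).card = X.card - W.card := Finset.card_sdiff_of_subset h
  rw [← hc, ← Finset.sum_pow_mul_eq_add_pow a b (X \ W), Finset.mul_sum]
  apply Finset.sum_congr rfl
  intro z hz
  rw [Finset.mem_powerset] at hz
  have hd : Disjoint W z := by
    rw [Finset.disjoint_left]; intro x hx hxa
    exact (Finset.mem_sdiff.mp (hz hxa)).2 hx
  have hcard : (W ∪ z).card = W.card + z.card := Finset.card_union_of_disjoint hd
  have hzle : z.card ≤ (X \ W).card := Finset.card_le_card hz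
  have hWle : W.card ≤ X.card := Finset.card_le_card h
  rw [hcard, pow_add]
  have : X.card - (W.card + z.card) = (X \ W).card - z.card := by omega
  rw [this]; ring

end Vale.Agent.P063

namespace Vale.Agent.P063

open Finset

variable {E : Type*} [Fintype E] [DecidableEq E]

/-- the coupling identity: thinning a `q`-random set with retention probability `θ`
gives a `q θ`-random set. -/
lemma wt_thin (q θ : ℝ) (y : Finset E) :
    (q * θ) ^ y.card * (1 - q * θ) ^ (Fintype.card E - y.card)
      = ∑ x ∈ Finset.Icc y Finset.univ,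
          (q ^ x.card * (1 - q) ^ (Fintype.card E - x.card)) *
            (θ ^ y.card * (1 - θ) ^ (x.card - y.card)) := by
  rw [sum_Icc_eq y Finset.univ (Finset.subset_univ y)]
  have hc : (Finset.univ \ y).card = Fintype.card E - y.card := by
    rw [Finset.card_sdiff_of_subset (Finset.subset_univ y), Finset.card_univ]
  have h1 : (1 - q * θ) = q * (1 - θ) + (1 - q) := by ring
  rw [h1, ← hc, ← Finset.sum_pow_mul_eq_add_pow (q * (1 - θ)) (1 - q) (Finset.univ \ y),
    Finset.mul_sum]
  apply Finset.sum_congr rfl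
  intro z hz
  rw [Finset.mem_powerset] at hz
  have hd : Disjoint y z := by
    rw [Finset.disjoint_left]; intro x hx hxa
    exact (Finset.mem_sdiff.mp (hz hxa)).2 hx
  have hcard : (y ∪ z).card = y.card + z.card := Finset.card_union_of_disjoint hd
  have hzle : z.card ≤ (Finset.univ \ y).card := Finset.card_le_card hz
  have hyle : y.card ≤ Fintype.card E := Finset.card_le_univ y
  rw [hcard]
  have e1 : Fintype.card E - (y.card + z.card) = (Finset.univ \ y).card - z.card := by omega
  have e2 : y.card + z.card - y.card = z.card := by omega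
  rw [e1, e2, pow_add, mul_pow, mul_pow]
  ring

/-- Sparsification inequality: if every member of an increasing family contains a member with at
most `m` elements, then `θ^m μ_q(P) ≤ μ_{qθ}(P)`. -/
theorem mu_thin (P : Finset (Finset E))
    (hinc : ∀ G H : Finset E, G ∈ P → G ⊆ H → H ∈ P) (m : ℕ)
    (hm : ∀ G ∈ P, ∃ W ∈ P, W ⊆ G ∧ W.card ≤ m)
    (q θ : ℝ) (hq0 : 0 ≤ q) (hq1 : q ≤ 1) (hθ0 : 0 ≤ θ) (hθ1 : θ ≤ 1) :
    θ ^ m * mu q P ≤ mu (q * θ) P := by
  classical
  unfold mu
  have step1 : ∑ G ∈ P, (q * θ) ^ G.card * (1 - q * θ) ^ (Fintype.card E - G.card)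
      = ∑ x ∈ (Finset.univ : Finset (Finset E)), ∑ y ∈ P.filter (· ⊆ x),
          (q ^ x.card * (1 - q) ^ (Fintype.card E - x.card)) *
            (θ ^ y.card * (1 - θ) ^ (x.card - y.card)) := by
    rw [Finset.sum_congr rfl (fun y _ => wt_thin q θ y)]
    apply Finset.sum_comm'
    intro y x
    simp only [Finset.mem_Icc, Finset.mem_filter, Finset.mem_univ, and_true,
      Finset.subset_univ]
  rw [step1, Finset.mul_sum]
  have hnn : ∀ x y : Finset E, 0 ≤ (q ^ x.card * (1 - q) ^ (Fintype.card E - x.card)) *
            (θ ^ y.card * (1 - θ) ^ (x.card - y.card)) := by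
    intro x y
    have h1 : 0 ≤ 1 - q := by linarith
    have h2 : 0 ≤ 1 - θ := by linarith
    positivity
  calc ∑ x ∈ P, θ ^ m * (q ^ x.card * (1 - q) ^ (Fintype.card E - x.card))
      ≤ ∑ x ∈ P, ∑ y ∈ P.filter (· ⊆ x),
          (q ^ x.card * (1 - q) ^ (Fintype.card E - x.card)) *
            (θ ^ y.card * (1 - θ) ^ (x.card - y.card)) := by
        apply Finset.sum_le_sum
        intro x hx
        obtain ⟨W, hWP, hWx, hWm⟩ := hm x hx
        have hsub : Finset.Icc W x ⊆ P.filter (· ⊆ x) := by
          intro y hy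
          rw [Finset.mem_Icc] at hy
          rw [Finset.mem_filter]
          exact ⟨hinc W y hWP hy.1, hy.2⟩
        have h3 : ∑ y ∈ Finset.Icc W x, (q ^ x.card * (1 - q) ^ (Fintype.card E - x.card)) *
            (θ ^ y.card * (1 - θ) ^ (x.card - y.card))
            = (q ^ x.card * (1 - q) ^ (Fintype.card E - x.card)) * θ ^ W.card := by
          rw [← Finset.mul_sum, sum_Icc_pow W x hWx θ (1 - θ)]
          simp
        calc θ ^ m * (q ^ x.card * (1 - q) ^ (Fintype.card E - x.card))
            ≤ (q ^ x.card * (1 - q) ^ (Fintype.card E - x.card)) * θ ^ W.card := by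
              rw [mul_comm]
              apply mul_le_mul_of_nonneg_left
              · exact pow_le_pow_of_le_one hθ0 hθ1 hWm
              · have h1 : 0 ≤ 1 - q := by linarith
                positivity
          _ = ∑ y ∈ Finset.Icc W x, (q ^ x.card * (1 - q) ^ (Fintype.card E - x.card)) *
            (θ ^ y.card * (1 - θ) ^ (x.card - y.card)) := h3.symm
          _ ≤ _ := Finset.sum_le_sum_of_subset_of_nonneg hsub (fun y _ _ => hnn x y)
    _ ≤ _ := by
        apply Finset.sum_le_sum_of_subset_of_nonneg (Finset.subset_univ P)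
        intro x _ _
        exact Finset.sum_nonneg (fun y _ => hnn x y)

end Vale.Agent.P063
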