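import Vale.Agent.P063.Clique

namespace Vale.Agent.P063

open Finset

/-- choice of the clique size -/
lemma exists_clique_size (r : ℕ) (hr : 2 ≤ r) (ε : ℝ) (hε0 : 0 < ε) (hε1 : ε < 1 / 2) :
    ∃ C : ℝ, 0 < C ∧ ∀ n : ℕ, 2 ≤ n → ∃ k : ℕ, r ≤ k ∧
      (n : ℝ) ^ k * (1 / 2 : ℝ) ^ (k.choose r) ≤ ε ∧
      (k : ℝ) ^ r ≤ C * (Real.log n) ^ ((r : ℝ) / ((r : ℝ) - 1)) := by
  have hlog2 : 0 < Real.log 2 := Real.log_pos (by norm_num)
  have hlogε : Real.log ε < 0 := Real.log_neg hε0 (by linarith)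
  have hr1 : (0 : ℝ) < (r : ℝ) - 1 := by
    have : (2 : ℝ) ≤ r := by exact_mod_cast hr
    linarith
  have hrpos : (0 : ℝ) < (r : ℝ) := by linarith
  have hfac : (1 : ℝ) ≤ (r.factorial : ℝ) := by exact_mod_cast Nat.one_le_iff_ne_zero.mpr (Nat.factorial_ne_zero r)
  set B : ℝ := ((r : ℝ) + 1) + (-Real.log ε) / Real.log 2 with hB
  have hB1 : (1 : ℝ) ≤ B := by
    have : 0 ≤ (-Real.log ε) / Real.log 2 := div_nonneg (by linarith) hlog2.le
    linarith
  set A : ℝ := (r.factorial : ℝ) * B / Real.log 2 with hA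
  have hApos : 0 < A := by
    apply div_pos _ hlog2
    apply mul_pos <;> linarith
  refine ⟨(2 * ((r : ℝ) + 1)) ^ r * A ^ ((r : ℝ) / ((r : ℝ) - 1)), by positivity, ?_⟩
  intro n hn
  set L : ℝ := Real.log n with hL
  have hn2 : (2 : ℝ) ≤ n := by exact_mod_cast hn
  have hnpos : (0 : ℝ) < n := by linarith
  have hL2 : Real.log 2 ≤ L := Real.log_le_log (by norm_num) hn2
  have hLpos : 0 < L := by linarith
  have hAL : 1 ≤ A * L := by
    have h1 : A * Real.log 2 = (r.factorial : ℝ) * B := by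
      rw [hA]; field_simp
    have h2 : A * Real.log 2 ≤ A * L := mul_le_mul_of_nonneg_left hL2 hApos.le
    have h3 : (1 : ℝ) ≤ (r.factorial : ℝ) * B := by nlinarith
    linarith
  set t : ℝ := (A * L) ^ (1 / ((r : ℝ) - 1)) with ht
  have ht1 : 1 ≤ t := Real.one_le_rpow hAL (by positivity)
  have htpos : 0 < t := by linarith
  have htpow : t ^ (r - 1) = A * L := by
    rw [ht, ← Real.rpow_natCast, ← Real.rpow_mul (by linarith)]
    have : (1 / ((r : ℝ) - 1)) * ((r - 1 : ℕ) : ℝ) = 1 := by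
      rw [Nat.cast_sub (by omega)]
      simp only [Nat.cast_one]
      field_simp
    rw [this, Real.rpow_one]
  have htpowr : t ^ r = (A * L) ^ ((r : ℝ) / ((r : ℝ) - 1)) := by
    rw [ht, ← Real.rpow_natCast, ← Real.rpow_mul (by linarith)]
    congr 1
    field_simp
  set j : ℕ := ⌈t⌉₊ with hj
  have hjt : t ≤ j := Nat.le_ceil t
  have hjlt : (j : ℝ) < t + 1 := Nat.ceil_lt_add_one htpos.le
  have hj1 : (1 : ℝ) ≤ j := by linarith
  have hjpos : (0 : ℝ) < j := by linarith
  have hjpow : A * L ≤ (j : ℝ) ^ (r - 1) := by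
    rw [← htpow]
    exact pow_le_pow_left₀ htpos.le hjt _
  refine ⟨j + r, by omega, ?_, ?_⟩
  · -- the first moment bound
    set c : ℕ := (j + r).choose r with hc
    have hcge : (j : ℝ) ^ r / (r.factorial : ℝ) ≤ c := by
      have h1 := Nat.pow_le_choose (α := ℝ) r (j + r)
      have h2 : j + r + 1 - r = j + 1 := by omega
      rw [h2] at h1
      have h3 : (j : ℝ) ^ r ≤ ((j + 1 : ℕ) : ℝ) ^ r := by
        apply pow_le_pow_left₀ hjpos.le
        push_cast; linarith
      calc (j : ℝ) ^ r / (r.factorial : ℝ) ≤ ((j + 1 : ℕ) : ℝ) ^ r / (r.factorial : ℝ) := by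
            apply div_le_div_of_nonneg_right h3 (by linarith)
        _ ≤ c := h1
    have hjr : (j : ℝ) ^ r = j * (j : ℝ) ^ (r - 1) := by
      rw [← pow_succ']
      congr 1; omega
    have hc2 : B * j * L ≤ c * Real.log 2 := by
      have h1 : (j : ℝ) * (A * L) ≤ (j : ℝ) ^ r := by
        rw [hjr]; exact mul_le_mul_of_nonneg_left hjpow hjpos.le
      have h2 : (j : ℝ) * (A * L) / (r.factorial : ℝ) ≤ c :=
        le_trans (div_le_div_of_nonneg_right h1 (by linarith)) hcge
      have h3 : (j : ℝ) * (A * L) / (r.factorial : ℝ) * Real.log 2 = B * j * L := by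
        rw [hA]; field_simp
      rw [← h3]
      exact mul_le_mul_of_nonneg_right h2 hlog2.le
    have hmain : ((j + r : ℕ) : ℝ) * L - c * Real.log 2 ≤ Real.log ε := by
      have h1 : ((j + r : ℕ) : ℝ) * L ≤ ((r : ℝ) + 1) * j * L := by
        push_cast
        have : (j : ℝ) + r ≤ ((r : ℝ) + 1) * j := by nlinarith
        exact mul_le_mul_of_nonneg_right this hLpos.le
      have h2 : -Real.log ε ≤ (-Real.log ε) / Real.log 2 * j * L := by
        have h3 : Real.log 2 ≤ j * L := by nlinarith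
        have h4 : (-Real.log ε) / Real.log 2 * j * L = (-Real.log ε) * ((j * L) / Real.log 2) := by
          ring
        rw [h4]
        have h5 : 1 ≤ (j * L) / Real.log 2 := by
          rw [le_div_iff₀ hlog2]; linarith
        nlinarith
      have h6 : B * j * L = ((r : ℝ) + 1) * j * L + (-Real.log ε) / Real.log 2 * j * L := by
        rw [hB]; ring
      linarith
    have hXpos : 0 < (n : ℝ) ^ (j + r) * (1 / 2 : ℝ) ^ c := by positivity
    rw [← Real.log_le_log_iff hXpos hε0, Real.log_mul (by positivity) (by positivity),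
      Real.log_pow, Real.log_pow]
    have : Real.log (1 / 2) = - Real.log 2 := by
      rw [one_div, Real.log_inv]
    rw [this]
    linarith
  · -- the size bound
    have h1 : ((j + r : ℕ) : ℝ) ≤ 2 * ((r : ℝ) + 1) * t := by
      push_cast
      nlinarith
    calc ((j + r : ℕ) : ℝ) ^ r ≤ (2 * ((r : ℝ) + 1) * t) ^ r :=
          pow_le_pow_left₀ (by positivity) h1 _
      _ = (2 * ((r : ℝ) + 1)) ^ r * t ^ r := by rw [mul_pow]
      _ = (2 * ((r : ℝ) + 1)) ^ r * (A ^ ((r : ℝ) / ((r : ℝ) - 1)) * L ^ ((r : ℝ) / ((r : ℝ) - 1))) := by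
          rw [htpowr, Real.mul_rpow hApos.le hLpos.le]
      _ = _ := by ring

/-- Main theorem: sharpness of the conjectured exponent `r/(r-1)`. -/
theorem sharpness (r : ℕ) (hr : 2 ≤ r) (ε : ℝ) (hε0 : 0 < ε) (hε1 : ε < 1 / 2) :
    ∃ c : ℝ, 0 < c ∧ ∀ n : ℕ, r ≤ n → ∃ P : Finset (Hyp n r), IsNontrivIncrProperty P ∧
      c / (Real.log n) ^ ((r : ℝ) / ((r : ℝ) - 1)) ≤ width ε P := by
  obtain ⟨C, hC, hk⟩ := exists_clique_size r hr ε hε0 hε1
  refine ⟨ε * (1 - 2 * ε) / C, by
    apply div_pos _ hC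
    apply mul_pos hε0; linarith, ?_⟩
  intro n hn
  obtain ⟨k0, hrk0, hfirst, hsize⟩ := hk n (by omega)
  have hn2 : (2 : ℝ) ≤ n := by exact_mod_cast (by omega : 2 ≤ n)
  have hLpos : 0 < Real.log n := Real.log_pos (by linarith)
  set Lr : ℝ := (Real.log n) ^ ((r : ℝ) / ((r : ℝ) - 1)) with hLr
  have hLrpos : 0 < Lr := Real.rpow_pos_of_pos hLpos _
  have h12 : 0 < 1 - 2 * ε := by linarith
  -- a common estimate
  have hcommon : ∀ k : ℕ, r ≤ k → k ≤ k0 → ∀ p0 : ℝ, ε ≤ p0 →
      ε * (1 - 2 * ε) / C / Lr ≤ p0 * (1 - 2 * ε) / (k.choose r : ℕ) := by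
    intro k hrk hkk0 p0 hp0
    have hch : (0 : ℝ) < (k.choose r : ℕ) := by exact_mod_cast Nat.choose_pos hrk
    have hle : ((k.choose r : ℕ) : ℝ) ≤ C * Lr := by
      calc ((k.choose r : ℕ) : ℝ) ≤ ((k0.choose r : ℕ) : ℝ) := by
            exact_mod_cast Nat.choose_le_choose r hkk0
        _ ≤ ((k0 ^ r : ℕ) : ℝ) := by exact_mod_cast Nat.choose_le_pow k0 r
        _ = (k0 : ℝ) ^ r := by push_cast; ring
        _ ≤ C * Lr := hsize
    rw [div_div]
    calc ε * (1 - 2 * ε) / (C * Lr) ≤ ε * (1 - 2 * ε) / (k.choose r : ℕ) := by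
          apply div_le_div_of_nonneg_left _ hch hle
          positivity
      _ ≤ p0 * (1 - 2 * ε) / (k.choose r : ℕ) := by
          apply div_le_div_of_nonneg_right _ hch.le
          exact mul_le_mul_of_nonneg_right hp0 h12.le
  by_cases hcase : k0 ≤ n
  · refine ⟨cliqueProp n r k0, cliqueProp_isProperty k0 hrk0 hcase, ?_⟩
    have hw := width_cliqueProp (n := n) (r := r) k0 (by omega) hrk0 hcase ε (1 / 2) hε0 hε1
      (by norm_num) (by norm_num) (by
        calc (n.choose k0 : ℝ) * (1 / 2 : ℝ) ^ (k0.choose r)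
            ≤ (n : ℝ) ^ k0 * (1 / 2 : ℝ) ^ (k0.choose r) := by
              apply mul_le_mul_of_nonneg_right _ (by positivity)
              exact_mod_cast Nat.choose_le_pow n k0
          _ ≤ ε := hfirst)
    exact le_trans (hcommon k0 hrk0 le_rfl (1 / 2) hε1.le) hw
  · push Not at hcase
    refine ⟨cliqueProp n r n, cliqueProp_isProperty n hn le_rfl, ?_⟩
    have hw := width_cliqueProp (n := n) (r := r) n (by omega) hn le_rfl ε ε hε0 hε1
      hε0 (by linarith) (by
        rw [Nat.choose_self]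
        have hch : 1 ≤ n.choose r := Nat.choose_pos hn
        have : ε ^ (n.choose r) ≤ ε ^ 1 := pow_le_pow_of_le_one hε0.le (by linarith) hch
        simpa using this)
    exact le_trans (hcommon n hn hcase.le ε le_rfl) hw

end Vale.Agent.P063
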