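import Vale.Agent.P063.Measure

namespace Vale.Agent.P063

open Finset

variable {E : Type*} [Fintype E] [DecidableEq E]

lemma mu_nonneg (P : Finset (Finset E)) (p : ℝ) (h0 : 0 ≤ p) (h1 : p ≤ 1) : 0 ≤ mu p P := by
  unfold mu
  apply Finset.sum_nonneg
  intro G _
  have : 0 ≤ 1 - p := by linarith
  positivity

/-- the measure of the up-set generated by `W` is `p ^ |W|`. -/
lemma mu_Icc (W : Finset E) (p : ℝ) : mu p (Finset.Icc W Finset.univ) = p ^ W.card := by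
  unfold mu
  have := sum_Icc_pow W Finset.univ (Finset.subset_univ W) p (1 - p)
  rw [Finset.card_univ] at this
  rw [this]; simp

lemma mu_one_of_univ_mem (P : Finset (Finset E)) (h : Finset.univ ∈ P) : mu 1 P = 1 := by
  unfold mu
  rw [Finset.sum_eq_single_of_mem Finset.univ h]
  · simp
  · intro G _ hG
    have hlt : G.card < Fintype.card E := by
      rw [← Finset.card_univ]
      exact Finset.card_lt_card (Finset.ssubset_univ_iff.mpr hG)
    have : Fintype.card E - G.card ≠ 0 := by omega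
    simp [this]

/-- Abstract lower bound for the threshold width. -/
theorem width_lower (P : Finset (Finset E))
    (hinc : ∀ G H : Finset E, G ∈ P → G ⊆ H → H ∈ P) (hne : ∃ G, G ∈ P)
    (m : ℕ) (hm0 : 0 < m)
    (hm : ∀ G ∈ P, ∃ W ∈ P, W ⊆ G ∧ W.card ≤ m)
    (ε p0 : ℝ) (hε0 : 0 < ε) (hε1 : ε < 1 / 2) (hp0 : 0 < p0)
    (hsmall : ∀ p : ℝ, 0 ≤ p → p < p0 → p ≤ 1 → mu p P < ε) :
    p0 * (1 - 2 * ε) / m ≤ width ε P := by
  have huniv : Finset.univ ∈ P := by
    obtain ⟨G, hG⟩ := hne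
    exact hinc G _ hG (Finset.subset_univ G)
  have hmu1 : mu 1 P = 1 := mu_one_of_univ_mem P huniv
  set S1 : Set ℝ := {p : ℝ | 0 ≤ p ∧ p ≤ 1 ∧ ε ≤ mu p P} with hS1
  set S2 : Set ℝ := {p : ℝ | 0 ≤ p ∧ p ≤ 1 ∧ 1 - ε ≤ mu p P} with hS2
  have h1S1 : (1 : ℝ) ∈ S1 := ⟨by norm_num, le_refl _, by rw [hmu1]; linarith⟩
  have h1S2 : (1 : ℝ) ∈ S2 := ⟨by norm_num, le_refl _, by rw [hmu1]; linarith⟩
  have hbdd1 : BddBelow S1 := ⟨0, fun p hp => hp.1⟩
  have hbdd2 : BddBelow S2 := ⟨0, fun p hp => hp.1⟩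
  have hp1_ge : p0 ≤ sInf S1 := by
    apply le_csInf ⟨1, h1S1⟩
    intro p hp
    by_contra hlt
    push Not at hlt
    have := hsmall p hp.1 hlt hp.2.1
    linarith [hp.2.2]
  have hp1_le : sInf S1 ≤ 1 := csInf_le hbdd1 h1S1
  have hmpos : (0 : ℝ) < m := by exact_mod_cast hm0
  unfold width pThr
  change p0 * (1 - 2 * ε) / m ≤ sInf S2 - sInf S1
  by_contra hcon
  push Not at hcon
  set Δ : ℝ := p0 * (1 - 2 * ε) / m with hΔ
  have hΔpos : 0 < Δ := by
    apply div_pos _ hmpos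
    apply mul_pos hp0; linarith
  -- pick p2 in S2 close to the infimum
  have hlt2 : sInf S2 < sInf S1 + Δ := by linarith
  obtain ⟨p2, hp2S, hp2lt⟩ := exists_lt_of_csInf_lt ⟨1, h1S2⟩ hlt2
  have hp2S1 : p2 ∈ S1 := ⟨hp2S.1, hp2S.2.1, by linarith [hp2S.2.2]⟩
  have hp1p2 : sInf S1 ≤ p2 := csInf_le hbdd1 hp2S1
  have hp2pos : 0 < p2 := by linarith
  -- pick p below the infimum of S1
  set p : ℝ := (max (p2 - Δ) 0 + sInf S1) / 2 with hp
  have hmaxlt : max (p2 - Δ) 0 < sInf S1 := by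
    apply max_lt
    · linarith
    · linarith
  have hmax0 : 0 ≤ max (p2 - Δ) 0 := le_max_right _ _
  have hmaxge : p2 - Δ ≤ max (p2 - Δ) 0 := le_max_left _ _
  have hp_lt : p < sInf S1 := by rw [hp]; linarith
  have hp_nn : 0 ≤ p := by rw [hp]; linarith
  have hp_gt : p2 - Δ < p := by rw [hp]; linarith
  have hp_le1 : p ≤ 1 := by linarith
  have hpnot : p ∉ S1 := fun hmem => absurd (csInf_le hbdd1 hmem) (not_le.mpr hp_lt)
  have hmu_p : mu p P < ε := by
    by_contra hge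
    push Not at hge
    exact hpnot ⟨hp_nn, hp_le1, hge⟩
  -- thinning
  set θ : ℝ := p / p2 with hθ
  have hθ0 : 0 ≤ θ := div_nonneg hp_nn hp2pos.le
  have hθ1 : θ ≤ 1 := by
    rw [hθ, div_le_one hp2pos]; linarith
  have hthin := mu_thin P hinc m hm p2 θ hp2S.1 hp2S.2.1 hθ0 hθ1
  have hpeq : p2 * θ = p := by
    rw [hθ]; field_simp
  rw [hpeq] at hthin
  -- Bernoulli
  have hbern : 1 + (m : ℝ) * (θ - 1) ≤ θ ^ m := by
    have := one_add_mul_le_pow (a := θ - 1) (by linarith) m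
    simpa using this
  have h1θ : (1 - θ) * p2 = p2 - p := by
    rw [hθ]; field_simp
  have h1θ' : (1 - θ) * p0 ≤ (1 - θ) * p2 := by
    apply mul_le_mul_of_nonneg_left _ (by linarith)
    linarith
  have hkey : (m : ℝ) * (1 - θ) < 1 - 2 * ε := by
    have h3 : (1 - θ) * p0 < Δ := by linarith
    have h4 : Δ * m = p0 * (1 - 2 * ε) := by
      rw [hΔ]; field_simp
    have h5 : (1 - θ) * p0 * m < p0 * (1 - 2 * ε) := by
      rw [← h4]; exact mul_lt_mul_of_pos_right h3 hmpos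
    have h6 : p0 * ((m : ℝ) * (1 - θ)) < p0 * (1 - 2 * ε) := by
      calc p0 * ((m : ℝ) * (1 - θ)) = (1 - θ) * p0 * m := by ring
        _ < _ := h5
    exact lt_of_mul_lt_mul_left h6 hp0.le
  have hθm : 2 * ε < θ ^ m := by linarith
  have hfin : 2 * ε * (1 - ε) < θ ^ m * mu p2 P := by
    have ha : 2 * ε * (1 - ε) < θ ^ m * (1 - ε) := by
      apply mul_lt_mul_of_pos_right hθm; linarith
    have hb : θ ^ m * (1 - ε) ≤ θ ^ m * mu p2 P := by
      apply mul_le_mul_of_nonneg_left hp2S.2.2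
      positivity
    linarith
  nlinarith

end Vale.Agent.P063
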